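import Vale.Agent.P120.All

namespace Vale.Agent.Results.P120.DavidSemmes

open MeasureTheory Vale.Agent.P120

/-- The David-Semmes problem: boundedness of the Riesz transform implies uniform
rectifiability, in every dimension and codimension. -/
theorem result (n d : ℕ) (hn : 1 ≤ n) (hd : n < d) (μ : Measure (EuclideanSpace ℝ (Fin d)))
    [IsLocallyFiniteMeasure μ] (C : ℝ) (hAD : IsADRegular n μ C) (hR : RieszBounded n μ) :
    IsUniformlyRectifiable n μ :=
  main_all n d hn hd.le μ C hAD hR

end Vale.Agent.Results.P120.DavidSemmes
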